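import Crest.Agent.R264.Model.Dx
import Crest.Agent.R264.Cell

/-! Glob 1: every point of `Om` is a model point. -/

set_option autoImplicit false
set_option linter.unusedSectionVars false
open Set Filter Topology Metric Complex

namespace Crest.Agent.R264

variable {E : Type} [NormedAddCommGroup E] [NormedSpace ℂ E] [NormedSpace ℝ E] [IsScalarTower ℝ ℂ E]
  [FiniteDimensional ℂ E] {A B : Type} [Fintype A] [Fintype B] {G : Geo A B} {R : Amb A B → ℝ} {n : ℕ} {X : Set E}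
  {π : E → Amb A B} {S : Sq E A B}

variable {C : Set (Amb A B)} {R₁ : (B → ℂ) → ℝ} {C₁ : Set (B → ℂ)}

/-- the dense open set of model points -/
def Sq.Om (S : Sq E A B) (X : Set E) (C₁ : Set (B → ℂ)) : Set E := {y | y ∈ Sub X S.tP ∧ S.tP y ∉ C₁}

theorem Sq.Om_sub_gl (S : Sq E A B) (X : Set E) (C₁ : Set (B → ℂ)) : S.Om X C₁ ⊆ X := fun _ hy => hy.1.1

theorem Sq.diff_Om_gl (S : Sq E A B) (X : Set E) (C₁ : Set (B → ℂ)) : X \ (S.Om X C₁)ᶜ = S.Om X C₁ := by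
  ext y
  simp only [mem_diff, mem_compl_iff, not_not]
  exact ⟨fun h => h.2, fun h => ⟨S.Om_sub_gl X C₁ h, h⟩⟩

theorem Sq.OK.an_tP_gl (hS : S.OK G X π) : AnalyticOn ℂ S.tP X := fun y hy =>
  (analyticAt_snd.comp analyticAt_snd).comp_analyticWithinAt (hS.anP y hy)

theorem Sq.OK.cont_P_gl (hS : S.OK G X π) {y : E} (hy : y ∈ X) : Tendsto S.P (𝓝[X] y) (𝓝 (S.P y)) :=
  (hS.anP y hy).continuousWithinAt

theorem Sq.OK.cont_tP_gl (hS : S.OK G X π) {y : E} (hy : y ∈ X) : Tendsto S.tP (𝓝[X] y) (𝓝 (S.tP y)) :=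
  (hS.an_tP_gl y hy).continuousWithinAt

theorem freq_pigeon_gl {α β : Type} {l : Filter α} {s : Set β} (hs : s.Finite) {p : α → β → Prop}
    (h : ∃ᶠ a in l, ∃ b ∈ s, p a b) : ∃ b ∈ s, ∃ᶠ a in l, p a b := by
  by_contra hc
  push Not at hc
  have h1 : ∀ᶠ a in l, ∀ b ∈ s, ¬ p a b := (eventually_all_finite hs).2 fun b hb => hc b hb
  refine h (h1.mono fun a ha => ?_)
  rintro ⟨b, hb, hp⟩
  exact ha b hb hp

theorem Sq.OK.mem_Z_gl (hS : S.OK G X π) (hD : G.Down R C R₁ C₁) {y : E} (hy : y ∈ X) (hC : S.tP y ∉ C₁) :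
    S.P y ∈ G.Z := hS.inZ y hy fun h0 => hC (hD.hC _ h0)

theorem Sq.OK.ev_Z_gl (hS : S.OK G X π) (hD : G.Down R C R₁ C₁) {y : E} (hy : y ∈ X) (hC : S.tP y ∉ C₁) :
    ∀ᶠ y' in 𝓝[X] y, S.tP y' ∉ C₁ ∧ S.P y' ∈ G.Z := by
  have h1 : ∀ᶠ y' in 𝓝[X] y, S.tP y' ∉ C₁ := hS.cont_tP_gl hy (hD.clC.isOpen_compl.mem_nhds hC)
  filter_upwards [h1, self_mem_nhdsWithin] with y' h2 h3
  exact ⟨h2, hS.mem_Z_gl hD h3 h2⟩

/-- a limit of model points over a good point is a model point -/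
theorem good_clo_gl (h : G.OK R) (u : Up n X π) (hc : ACls X π R C) (hS : S.OK G X π) {y : E} (hy : y ∈ X)
    (hz : S.P y ∈ G.Z) (hn : G.nd (S.P y)) (hC : S.P y ∉ C) (hf : ∃ᶠ y' in 𝓝[X] y, ∃ m, S.MOD G X π y' m) :
    ∃ m, S.MOD G X π y m := by
  obtain ⟨W, 𝒟, hfin, hd, hev⟩ := loc_good h u hc hS hz hn hC
  have h1 := (hS.cont_P_gl hy).eventually hev
  have h2 : ∃ᶠ y' in 𝓝[X] y, ∃ σ ∈ 𝒟, ∃ m, S.Foll G π (S.P y) W σ y' m := by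
    refine (hf.and_eventually h1).mono ?_
    rintro y' ⟨⟨m, hm⟩, h3⟩
    obtain ⟨σ, hσ, h4⟩ := h3 y' m rfl hm
    exact ⟨σ, hσ, m, h4⟩
  obtain ⟨σ, hσ, h3⟩ := freq_pigeon_gl hfin h2
  obtain ⟨m, -, h4⟩ := ((hd σ hσ).clo h u hS hz hn).self_of_nhds y hy (h.bz _ hz).symm h3
  exact ⟨m, hy, hz, hn, W, ∅, σ, hd σ hσ, h4⟩

theorem good_clo_gl₁ (h : G.OK R) (u : Up n X π) (hc : ACls X π R C) (hD : G.Down R C R₁ C₁) (hS : S.OK G X π) {y : E}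
    (hy : y ∈ X) (h1 : R₁ (S.tP y) ≠ 0) (hf : ∃ᶠ y' in 𝓝[X] y, ∃ m, S.MOD G X π y' m) : ∃ m, S.MOD G X π y m := by
  have hz := hS.mem_Z_gl hD hy fun hC => h1 (hD.RC _ hC)
  exact good_clo_gl h u hc hS hy hz (hD.good _ hz h1).1 (hD.good _ hz h1).2 hf

theorem Sq.MOD.ev_gl (h : G.OK R) (u : Up n X π) (hS : S.OK G X π) {y : E} {m : Amb A B} (hy : S.MOD G X π y m) :
    ∀ᶠ y' in 𝓝[X] y, ∃ m', S.MOD G X π y' m' := by
  obtain ⟨-, -, Φ, -, -, h1⟩ := hy.loc h u hS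
  exact h1.mono fun y' h2 => ⟨_, h2⟩

/-- one side of a degenerate wall -/
theorem deg_side_gl (h : G.OK R) (u : Up n X π) (hc : ACls X π R C) (hD : G.Down R C R₁ C₁) (hS : S.OK G X π) {y : E}
    (hy : y ∈ Sub X S.tP) (hz : S.P y ∈ G.Z) {r₁ : (B → ℂ) → ℝ} (hr : AnalyticAt ℝ r₁ (S.tP y))
    (h0 : r₁ (S.tP y) = 0) (hd : fderiv ℝ r₁ (S.tP y) ≠ 0) (hR : ∀ᶠ τ in 𝓝 (S.tP y), (R₁ τ = 0 ↔ r₁ τ = 0))
    (hdeg : ∀ᶠ τ in 𝓝 (S.tP y), R₁ τ = 0 → ¬ G.nd (G.b (S.P y) τ))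
    (hf : ∃ᶠ y' in 𝓝[X] y, 0 < r₁ (S.tP y') ∧ ∃ m, S.MOD G X π y' m) : False := by
  obtain ⟨k, Λ, O, δ, g, -, hO, hyO, -, hδ, -, hb⟩ := Sub.chart u.cm.mfd hS.an_tP_gl hy (U := univ) univ_mem
  obtain ⟨W, hW, hyW, hWU, -, -, -, hp, -, -, -⟩ := half_box hr h0 hd
    (U := ball (S.tP y) δ ∩ {τ | R₁ τ = 0 ↔ r₁ τ = 0}) (inter_mem (ball_mem_nhds _ hδ) hR)
  set V : Set (B → ℂ) := W ∩ {x | 0 < r₁ x} with hV
  have hVc : IsPreconnected V := (preconn_of_contr hp).isPreconnected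
  have hsub : V ×ˢ ball (0 : Fin k → ℂ) δ ⊆ ball (S.tP y) δ ×ˢ ball 0 δ :=
    prod_mono (fun τ hτ => (hWU hτ.1).1) Subset.rfl
  set N : Set E := g '' (V ×ˢ ball (0 : Fin k → ℂ) δ) with hN
  have hNc : IsPreconnected N :=
    (hVc.prod (convex_ball _ _).isPreconnected).image g (hb.ag.continuousOn.mono hsub)
  have hNX : N ⊆ X := by
    rintro _ ⟨p, hp, rfl⟩
    exact (hb.mg (hsub hp)).1
  have hNt : ∀ x ∈ N, S.tP x ∈ V := by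
    rintro _ ⟨p, hp, rfl⟩
    have := congrArg Prod.fst (hb.fg p (hsub hp))
    simp only at this
    rw [this]; exact hp.1
  have hev : ∀ᶠ y' in 𝓝[X] y, 0 < r₁ (S.tP y') → y' ∈ N := by
    filter_upwards [self_mem_nhdsWithin, mem_nhdsWithin_of_mem_nhds (hO.mem_nhds hyO),
      hS.cont_tP_gl hy.1 (hW.mem_nhds hyW)] with y' h1 h2 h3 h4
    exact ⟨(S.tP y', Λ y'), ⟨⟨h3, h4⟩, (hb.mf ⟨h1, h2⟩).2⟩, hb.gf y' ⟨h1, h2⟩⟩
  have hall : N ⊆ {y' | ∃ m, S.MOD G X π y' m} := by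
    refine clopen_ind hNc ?_ ?_ ?_
    · obtain ⟨y', ⟨h1, h2⟩, h3⟩ := (hf.and_eventually hev).exists
      exact ⟨y', h3 h1, h2⟩
    · rintro x hx ⟨m, hm⟩
      exact (hm.ev_gl h u hS).filter_mono (nhdsWithin_mono _ hNX)
    · intro x hx hfr
      refine good_clo_gl₁ h u hc hD hS (hNX hx) ?_ (hfr.filter_mono (nhdsWithin_mono _ hNX))
      have h1 := hNt x hx
      have h2 := (hWU h1.1).2
      exact fun h3 => (ne_of_gt h1.2) (h2.1 h3)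
  refine dx h u hS hy hz hr h0 hd ?_ (hev.mono fun y' h1 h2 => hall (h1 h2))
  filter_upwards [hR, hdeg] with τ h1 h2 h3
  exact h2 (h1.2 h3)

theorem om_clo_gl (h : G.OK R) (u : Up n X π) (hc : ACls X π R C) (hD : G.Down R C R₁ C₁) (hS : S.OK G X π) {y : E}
    (hy : y ∈ S.Om X C₁) (hf : ∃ᶠ y' in 𝓝[X] y, ∃ m, S.MOD G X π y' m) : ∃ m, S.MOD G X π y m := by
  have hyX := S.Om_sub_gl X C₁ hy
  by_cases h1 : R₁ (S.tP y) = 0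
  swap
  · exact good_clo_gl₁ h u hc hD hS hyX h1 hf
  have hz := hS.mem_Z_gl hD hyX hy.2
  rcases hD.tri _ hz hy.2 with ⟨hn, hC⟩ | ⟨hn, hcell⟩ | hdeg
  · exact good_clo_gl h u hc hS hyX hz hn hC hf
  · obtain ⟨W, N, 𝒟, -, hd, hev⟩ := loc_cell h u hc hS hz hn h1 hcell
    obtain ⟨σ, hσ, h3⟩ := hev.self_of_nhds h1 y hy.1 (h.bz _ hz).symm ((hS.ev_Z_gl hD hyX hy.2).mono fun _ h => h.2) hf
    obtain ⟨m, -, h4⟩ := ((hd σ hσ).clo h u hS hz hn).self_of_nhds y hyX (h.bz _ hz).symm h3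
    exact ⟨m, hyX, hz, hn, W, N, σ, hd σ hσ, h4⟩
  · exfalso
    obtain ⟨r₁, hr, hd, hR⟩ := hD.smooth _ hy.2 h1
    have h0 : r₁ (S.tP y) = 0 := hR.self_of_nhds.1 h1
    have hne : ∀ᶠ y' in 𝓝[X] y, (∃ m, S.MOD G X π y' m) → r₁ (S.tP y') ≠ 0 := by
      filter_upwards [(hS.cont_P_gl hyX).eventually (h.near hz), (hS.cont_tP_gl hyX).eventually hR,
        (hS.cont_tP_gl hyX).eventually hdeg] with y' h2 h3 h4
      rintro ⟨m, hm⟩ h5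
      refine h4 (h3.2 h5) ?_
      have h6 : G.b (S.P y) (S.tP y') = S.P y' := h2 hm.2.1
      rw [h6]; exact hm.2.2.1
    have h2 : ∃ᶠ y' in 𝓝[X] y, (0 < r₁ (S.tP y') ∧ ∃ m, S.MOD G X π y' m) ∨
        (0 < -r₁ (S.tP y') ∧ ∃ m, S.MOD G X π y' m) := by
      refine (hf.and_eventually hne).mono ?_
      rintro y' ⟨h3, h4⟩
      rcases lt_or_gt_of_ne (h4 h3) with h5 | h5
      · exact Or.inr ⟨by linarith, h3⟩
      · exact Or.inl ⟨h5, h3⟩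
    rcases frequently_or_distrib.1 h2 with h3 | h3
    · exact deg_side_gl h u hc hD hS hy.1 hz hr h0 hd hR hdeg h3
    · refine deg_side_gl h u hc hD hS hy.1 hz (r₁ := fun τ => -r₁ τ) hr.neg (by simp [h0]) ?_ ?_ hdeg h3
      · rw [fderiv_fun_neg]; exact neg_ne_zero.2 hd
      · exact hR.mono fun τ h4 => by rw [h4, neg_eq_zero]

theorem Sq.OK.om_open_gl (u : Up n X π) (hS : S.OK G X π) (hC : IsClosed C₁) {y : E} (hy : y ∈ S.Om X C₁) :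
    ∀ᶠ y' in 𝓝[X] y, y' ∈ S.Om X C₁ := by
  filter_upwards [Sub.open u.cm.mfd hS.an_tP_gl hy.1, hS.cont_tP_gl hy.1.1 (hC.isOpen_compl.mem_nhds hy.2)] with y' h1 h2
  exact ⟨h1, h2⟩

/-- See `Blueprint.lean`, Glob 1. -/
theorem glob (h : G.OK R) (u : Up n X π) (hc : ACls X π R C) (hD : G.Down R C R₁ C₁) (hS : S.OK G X π)
    {y₀ : E} {m₀ : Amb A B} (h0 : S.MOD G X π y₀ m₀) (h1 : R₁ (S.tP y₀) ≠ 0) :
    Small X (S.Om X C₁)ᶜ ∧ ClIn X (S.Om X C₁)ᶜ ∧ ∀ y ∈ S.Om X C₁, ∃ m, S.MOD G X π y m := by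
  have hy₀ : y₀ ∈ S.Om X C₁ := ⟨(h0.loc h u hS).2.1, fun hC => h1 (hD.RC _ hC)⟩
  have hs : Small X (S.Om X C₁)ᶜ := by
    have h2 := (small_not_sub u.cm.mfd u.cm.conn.isPreconnected hS.an_tP_gl ⟨y₀, hy₀.1⟩).1
    have h3 := hD.smC.preimage u.cm.mfd hS.an_tP_gl (mapsTo_univ _ _)
    refine (h2.union h3).mono ?_
    rintro x ⟨hx, hxX⟩
    by_cases h4 : x ∈ Sub X S.tP
    · refine Or.inr ⟨hxX, ?_, fun c _ => h4.2 c⟩
      by_contra h5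
      exact hx ⟨h4, h5⟩
    · exact Or.inl h4
  have hcl : ClIn X (S.Om X C₁)ᶜ := by
    intro x hx hcl hxO
    have h2 := hS.om_open_gl u hD.clC hxO
    rw [mem_closure_iff_frequently] at hcl
    rw [eventually_nhdsWithin_iff] at h2
    obtain ⟨y, ⟨h3, h4⟩, h5⟩ := (hcl.and_eventually h2).exists
    exact h3 (h5 h4)
  refine ⟨hs, hcl, ?_⟩
  have hcon : IsPreconnected (S.Om X C₁) := by
    have := hs.preconn u.cm.mfd u.cm.conn.isPreconnected hcl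
    rwa [S.diff_Om_gl] at this
  refine clopen_ind hcon (A := {y | ∃ m, S.MOD G X π y m}) ⟨y₀, hy₀, m₀, h0⟩ ?_ ?_
  · rintro x hx ⟨m, hm⟩
    exact (hm.ev_gl h u hS).filter_mono (nhdsWithin_mono _ (S.Om_sub_gl X C₁))
  · intro x hx hfr
    exact om_clo_gl h u hc hD hS hx (hfr.filter_mono (nhdsWithin_mono _ (S.Om_sub_gl X C₁)))

end Crest.Agent.R264
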