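import Crest.Agent.R264.Glob.G1

/-! Glob 2: model charts, the fibre maps, the Heisenberg action. -/

set_option autoImplicit false
set_option linter.unusedSectionVars false
open Set Filter Topology Metric Complex

namespace Crest.Agent.R264

variable {E : Type} [NormedAddCommGroup E] [NormedSpace ℂ E] [NormedSpace ℝ E] [IsScalarTower ℝ ℂ E]
  [FiniteDimensional ℂ E] {A B : Type} [Fintype A] [Fintype B] {G : Geo A B} {R : Amb A B → ℝ} {n : ℕ} {X : Set E}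
  {π : E → Amb A B} {S : Sq E A B}

variable {C : Set (Amb A B)} {R₁ : (B → ℂ) → ℝ} {C₁ : Set (B → ℂ)}

/-- a model chart -/
structure MCh (S : Sq E A B) (G : Geo A B) (X : Set E) (π : E → Amb A B) (z : Amb A B) (T : Set (B → ℂ))
    (ψ : Amb A B → E) (Φ : E → Amb A B) (O : Set E) : Prop where
  oO : IsOpen O
  bih : Bih (G.MT z T) (X ∩ O) ψ Φ
  mod : ∀ m ∈ G.MT z T, S.P (ψ m) = G.b z m.2.2 ∧ S.MOD G X π (ψ m) m
  tr : ∀ c a, AnalyticOnNhd ℂ (G.tr z c a) (G.MT z T) ∧ MapsTo (G.tr z c a) (G.MT z T) (G.MT z T)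

theorem Sq.MOD.inM_gl {y : E} {m : Amb A B} (hy : S.MOD G X π y m) : G.InM (S.P y) m := by
  obtain ⟨-, -, -, W, N, σ, -, hf⟩ := hy
  exact hf.2.2

theorem Sq.MOD.chart_gl (h : G.OK R) (u : Up n X π) (hS : S.OK G X π) {y : E} {m : Amb A B} (hy : S.MOD G X π y m) :
    ∃ T ψ Φ O, MCh S G X π (S.P y) T ψ Φ O ∧ m ∈ G.MT (S.P y) T ∧ ψ m = y := by
  have ht := hy.t_eq hS
  have hin := hy.inM_gl
  obtain ⟨hX, hz, hn, W, N, σ, d, hf⟩ := hy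
  obtain ⟨T₀, hT₀, h1⟩ := d.lm h u hS hz hn
  obtain ⟨T₁, hT₁, -, h2⟩ := h.MT_open hz hn
  obtain ⟨ε, hε, hb⟩ := Metric.mem_nhds_iff.1 (inter_mem hT₀ hT₁)
  have hm : m.2.2 ∈ ball (S.P y).2.2 ε := by
    rw [ht]; exact mem_ball_self hε
  obtain ⟨ψ, Φ, O, hO, hbih, h3, h4⟩ := h1 _ (fun τ hτ => (hb hτ).1) isOpen_ball (convex_ball _ _).isPreconnected
    y hX m hm hf
  obtain ⟨-, -, h5⟩ := h2 _ (fun τ hτ => (hb hτ).2) isOpen_ball (convex_ball _ _).isPreconnected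
  exact ⟨_, ψ, Φ, O, ⟨hO, hbih, fun m' hm' => ⟨(h3 m' hm').1, (h3 m' hm').2.2⟩, h5⟩, ⟨hm, hin⟩, h4 y hX m hm hf⟩

theorem Geo.Q_cont_gl (G : Geo A B) (p : Amb A B) : Continuous (G.Q p) := by
  unfold Geo.Q
  fun_prop

theorem Geo.Q_zero_gl (G : Geo A B) (p : Amb A B) : G.Q p 0 = 0 := by
  simp [Geo.Q]

/-- fibres of the model are connected -/
theorem Geo.MT_fibre_gl (G : Geo A B) (z : Amb A B) (τ : B → ℂ) : IsPreconnected (G.MT z {τ}) := by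
  have hc : Convex ℝ ({s : ℂ | 0 < s.im} ×ˢ (univ : Set (A → ℂ))) :=
    (convex_halfSpace_im_gt 0).prod convex_univ
  have hq := G.Q_cont_gl (G.b z τ)
  have h1 := hc.isPreconnected.image
    (fun p : ℂ × (A → ℂ) => ((p.1 + (G.Q (G.b z τ) p.2 : ℂ) * I, p.2, τ) : Amb A B)) (by fun_prop)
  convert h1 using 1
  ext m
  constructor
  · rintro ⟨hm, hin⟩
    rw [mem_singleton_iff] at hm
    simp only [Geo.InM, hm] at hin
    refine ⟨(m.1 - (G.Q (G.b z τ) m.2.1 : ℂ) * I, m.2.1), ⟨by simpa using hin, trivial⟩, ?_⟩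
    ext <;> simp [hm]
  · rintro ⟨p, ⟨hp, -⟩, rfl⟩
    refine ⟨rfl, ?_⟩
    simp only [Geo.InM]
    simpa using hp

section
variable {z z' : Amb A B} {T T' : Set (B → ℂ)} {ψ ψ' : Amb A B → E} {Φ Φ' : E → Amb A B} {O O' : Set E}

theorem MCh.b_eq (c : MCh S G X π z T ψ Φ O) (c' : MCh S G X π z' T' ψ' Φ' O') {m m' : Amb A B}
    (hm : m ∈ G.MT z T) (hm' : m' ∈ G.MT z' T') (he : ψ m = ψ' m') : m = m' ∧ G.b z m.2.2 = G.b z' m.2.2 := by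
  have h1 : m = m' := (c.mod m hm).2.unique (he ▸ (c'.mod m' hm').2)
  subst h1
  exact ⟨rfl, by rw [← (c.mod m hm).1, ← (c'.mod m hm').1, he]⟩

/-- KEY: two charts which meet agree along the fibre -/
theorem MCh.key (c : MCh S G X π z T ψ Φ O) (c' : MCh S G X π z' T' ψ' Φ' O') {m : Amb A B}
    (hm : m ∈ G.MT z T) (hm' : m ∈ G.MT z' T') (he : ψ m = ψ' m) {m₁ : Amb A B} (h1 : m₁ ∈ G.MT z T)
    (ht : m₁.2.2 = m.2.2) : m₁ ∈ G.MT z' T' ∧ ψ m₁ = ψ' m₁ := by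
  have hb := (c.b_eq c' hm hm' he).2
  have hs : G.MT z {m.2.2} ⊆ G.MT z T := fun x hx => ⟨by rw [mem_singleton_iff.1 hx.1]; exact hm.1, hx.2⟩
  have hs' : G.MT z {m.2.2} ⊆ G.MT z' T' := fun x hx => by
    refine ⟨by rw [mem_singleton_iff.1 hx.1]; exact hm'.1, ?_⟩
    have := hx.2
    simp only [Geo.InM, mem_singleton_iff.1 hx.1] at this ⊢
    rwa [← hb]
  have hm₁ : m₁ ∈ G.MT z {m.2.2} := ⟨ht, h1.2⟩
  refine ⟨hs' hm₁, ?_⟩
  refine clopen_ind (G.MT_fibre_gl z m.2.2) (A := {x | ψ x = ψ' x}) ⟨m, ⟨rfl, hm.2⟩, he⟩ ?_ ?_ hm₁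
  · intro x hx hxe
    have h2 : Tendsto ψ (𝓝[G.MT z {m.2.2}] x) (𝓝 (ψ x)) := (c.bih.af.continuousOn x (hs hx)).mono hs
    have h3 : ψ x ∈ O' := by
      rw [show ψ x = ψ' x from hxe]; exact (c'.bih.mf (hs' hx)).2
    filter_upwards [h2 (c'.oO.mem_nhds h3), self_mem_nhdsWithin] with x' h4 h5
    have h6 : ψ x' ∈ X ∩ O' := ⟨(c.bih.mf (hs h5)).1, h4⟩
    have h7 := c'.bih.fg _ h6
    have h8 := (c.b_eq c' (hs h5) (c'.bih.mg h6) h7.symm).1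
    rw [← h8] at h7
    exact h7.symm
  · intro x hx hfr
    exact tendsto_nhds_unique_of_frequently_eq ((c.bih.af.continuousOn x (hs hx)).mono hs)
      ((c'.bih.af.continuousOn x (hs' hx)).mono hs') hfr

theorem MCh.t_eq (hS : S.OK G X π) (c : MCh S G X π z T ψ Φ O) {m : Amb A B} (hm : m ∈ G.MT z T) :
    S.tP (ψ m) = m.2.2 := ((c.mod m hm).2.t_eq hS).symm

theorem MCh.mem_om (h : G.OK R) (u : Up n X π) (hS : S.OK G X π) (c : MCh S G X π z T ψ Φ O) {m : Amb A B}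
    (hm : m ∈ G.MT z T) (hC : m.2.2 ∉ C₁) : ψ m ∈ S.Om X C₁ :=
  ⟨((c.mod m hm).2.loc h u hS).2.1, by rwa [c.t_eq hS hm]⟩

theorem MCh.bZ (c : MCh S G X π z T ψ Φ O) {m : Amb A B} (hm : m ∈ G.MT z T) :
    G.b z m.2.2 ∈ G.Z ∧ G.nd (G.b z m.2.2) := by
  rw [← (c.mod m hm).1]
  exact ⟨(c.mod m hm).2.2.1, (c.mod m hm).2.2.2.1⟩

end

/-- a fibre preserving self-map of all model charts -/
structure FMap (S : Sq E A B) (G : Geo A B) (X : Set E) (π : E → Amb A B) (θ : Amb A B → Amb A B → Amb A B) :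
    Prop where
  an : ∀ z T ψ Φ O, MCh S G X π z T ψ Φ O → AnalyticOn ℂ (θ z) (G.MT z T) ∧ MapsTo (θ z) (G.MT z T) (G.MT z T)
  t : ∀ z m, (θ z m).2.2 = m.2.2
  dep : ∀ z z' m, G.b z m.2.2 = G.b z' m.2.2 → θ z m = θ z' m

/-- `f` is induced by `θ` -/
def IndGl (S : Sq E A B) (G : Geo A B) (X : Set E) (π : E → Amb A B) (C₁ : Set (B → ℂ))
    (θ : Amb A B → Amb A B → Amb A B) (f : E → E) : Prop :=
  AnalyticOn ℂ f X ∧ MapsTo f X X ∧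
    ∀ z T ψ Φ O, MCh S G X π z T ψ Φ O → ∀ m ∈ G.MT z T, m.2.2 ∉ C₁ → f (ψ m) = ψ (θ z m)

theorem FMap.ind (h : G.OK R) (u : Up n X π) (hS : S.OK G X π) (hs : Small X (S.Om X C₁)ᶜ)
    (hcl : ClIn X (S.Om X C₁)ᶜ) (hm : ∀ y ∈ S.Om X C₁, ∃ m, S.MOD G X π y m) {θ : Amb A B → Amb A B → Amb A B}
    (hθ : FMap S G X π θ) : ∃ f, IndGl S G X π C₁ θ f := by
  have h1 : ∀ y, ∃ (m : Amb A B) (T : Set (B → ℂ)) (ψ : Amb A B → E) (Φ : E → Amb A B) (O : Set E),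
      y ∈ S.Om X C₁ → MCh S G X π (S.P y) T ψ Φ O ∧ m ∈ G.MT (S.P y) T ∧ ψ m = y := by
    intro y
    by_cases hy : y ∈ S.Om X C₁
    · obtain ⟨m, hm⟩ := hm y hy
      obtain ⟨T, ψ, Φ, O, h2⟩ := hm.chart_gl h u hS
      exact ⟨m, T, ψ, Φ, O, fun _ => h2⟩
    · exact ⟨0, ∅, fun _ => y, fun _ => 0, ∅, fun h2 => absurd h2 hy⟩
  choose mc Tc ψc Φc Oc hch using h1
  set f : E → E := fun y => ψc y (θ (S.P y) (mc y)) with hf
  have hkey : ∀ z T ψ Φ O, MCh S G X π z T ψ Φ O → ∀ m ∈ G.MT z T, m.2.2 ∉ C₁ → f (ψ m) = ψ (θ z m) := by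
    intro z T ψ Φ O c m hmT hC
    obtain ⟨c', h2, h3⟩ := hch _ (c.mem_om h u hS hmT hC)
    obtain ⟨h4, h5⟩ := c.b_eq c' hmT h2 h3.symm
    rw [← h4] at h2 h3
    simp only [hf]
    rw [← h4, ← hθ.dep _ _ _ h5]
    exact (c.key c' hmT h2 h3.symm ((hθ.an _ _ _ _ _ c).2 hmT) (hθ.t _ _)).2.symm
  have han : AnalyticOn ℂ f (X \ (S.Om X C₁)ᶜ) := by
    rw [S.diff_Om_gl]
    refine anOn_of_local fun y hy => ?_
    obtain ⟨c, h2, h3⟩ := hch y hy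
    have hyO : y ∈ Oc y := by
      have := (c.bih.mf h2).2
      rwa [h3] at this
    refine ⟨Oc y, c.oO.mem_nhds hyO, ?_⟩
    have h4 : AnalyticOn ℂ (fun x => ψc y (θ (S.P y) (Φc y x))) (X ∩ Oc y) :=
      c.bih.af.comp ((hθ.an _ _ _ _ _ c).1.comp c.bih.ag c.bih.mg) ((hθ.an _ _ _ _ _ c).2.comp c.bih.mg)
    refine (h4.mono (inter_subset_inter_left _ (S.Om_sub_gl X C₁))).congr fun x hx => ?_
    have hx' : x ∈ X ∩ Oc y := ⟨S.Om_sub_gl X C₁ hx.1, hx.2⟩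
    have h5 := c.bih.fg x hx'
    have h6 : (Φc y x).2.2 ∉ C₁ := by
      rw [← c.t_eq hS (c.bih.mg hx'), h5]; exact hx.1.2
    have h7 := hkey _ _ _ _ _ c _ (c.bih.mg hx') h6
    rwa [h5] at h7
  have hmp : MapsTo f (X \ (S.Om X C₁)ᶜ) X := by
    rw [S.diff_Om_gl]
    intro y hy
    obtain ⟨c, h2, h3⟩ := hch y hy
    exact (c.bih.mf ((hθ.an _ _ _ _ _ c).2 h2)).1
  obtain ⟨g, hg1, hg2, hg3⟩ := removal_map u.cm.mfd hs hcl u.cm han hmp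
  rw [S.diff_Om_gl] at hg3
  refine ⟨g, hg1, hg2, fun z T ψ Φ O c m hmT hC => ?_⟩
  rw [hg3 (c.mem_om h u hS hmT hC)]
  exact hkey z T ψ Φ O c m hmT hC

theorem fmap_tr (c : ℝ) (a : A → ℂ) : FMap S G X π (fun z => G.tr z c a) where
  an := fun _ _ _ _ _ hc => ⟨(hc.tr c a).1.analyticOn, (hc.tr c a).2⟩
  t := fun _ _ => rfl
  dep := fun z z' m h => by simp only [Geo.tr, h]

theorem an_sc_gl (l : ℝ) (m : Amb A B) : AnalyticAt ℂ (sc l : Amb A B → Amb A B) m := by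
  have : (sc l : Amb A B → Amb A B) = fun m => (((l ^ 2 : ℝ) : ℂ) * m.1, (l : ℂ) • m.2.1, m.2.2) := by
    funext m; simp [sc]
  rw [this]
  exact (analyticAt_const.mul analyticAt_fst).prod
    (((analyticAt_fst.comp analyticAt_snd).const_smul (c := (l : ℂ))).prod (analyticAt_snd.comp analyticAt_snd))

theorem fmap_sc (s : ℝ) : FMap S G X π (fun _ => sc (Real.exp s)) where
  an := fun z _ _ _ _ _ => ⟨fun m _ => (an_sc_gl _ m).analyticWithinAt,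
    fun m hm => ⟨hm.1, (G.InM_sc z m (Real.exp_pos s).ne').2 hm.2⟩⟩
  t := fun _ _ => rfl
  dep := fun _ _ _ _ => rfl

theorem Geo.inM_I_gl (G : Geo A B) (z : Amb A B) (τ : B → ℂ) : G.InM z (I, 0, τ) := by
  simp [Geo.InM, G.Q_zero_gl]

theorem fmap_rho : FMap S G X π (fun _ m => (I, 0, m.2.2)) where
  an := fun z _ _ _ _ _ => ⟨fun m _ => (analyticAt_const.prod (analyticAt_const.prod
    (analyticAt_snd.comp analyticAt_snd))).analyticWithinAt, fun m hm => ⟨hm.1, G.inM_I_gl z _⟩⟩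
  t := fun _ _ => rfl
  dep := fun _ _ _ _ => rfl

theorem Geo.tr_zero_gl (G : Geo A B) (z m : Amb A B) : G.tr z 0 0 m = m := by
  simp [Geo.tr]

theorem sc_one_gl (m : Amb A B) : sc 1 m = m := by simp [sc]

theorem sc_mul_gl (l l' : ℝ) (m : Amb A B) : sc (l * l') m = sc l (sc l' m) := by
  simp only [sc, mul_smul]
  congr 1
  push_cast; ring

theorem Geo.orbit_gl (G : Geo A B) {z m : Amb A B} (hn : G.nd (G.b z m.2.2)) (hm : G.InM z m) :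
    ∃ c a s, m = G.tr z c a (sc (Real.exp s) (I, 0, m.2.2)) := by
  set p := G.b z m.2.2 with hp
  set a := (G.xi p).inverse m.2.1 with ha
  have h1 : G.xi p a = m.2.1 := hn.self_apply_inverse _
  have h2 : 0 < m.1.im - (G.eta p a a).im := sub_pos.2 hm
  refine ⟨m.1.re - (G.eta p a a).re, a, Real.log (m.1.im - (G.eta p a a).im) / 2, ?_⟩
  have h3 : Real.exp (Real.log (m.1.im - (G.eta p a a).im) / 2) ^ 2 = m.1.im - (G.eta p a a).im := by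
    rw [← Real.exp_nat_mul, show ((2 : ℕ) : ℝ) * (Real.log (m.1.im - (G.eta p a a).im) / 2) =
      Real.log (m.1.im - (G.eta p a a).im) by push_cast; ring, Real.exp_log h2]
  simp only [Geo.tr, sc, ← hp, h3, smul_zero, map_zero, add_zero, zero_add, h1]
  refine Prod.ext ?_ rfl
  apply Complex.ext <;> simp

/-- See `Blueprint.lean`, Glob 2. -/
theorem act (h : G.OK R) (u : Up n X π) (hS : S.OK G X π) (hs : Small X (S.Om X C₁)ᶜ) (hcl : ClIn X (S.Om X C₁)ᶜ)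
    (hm : ∀ y ∈ S.Om X C₁, ∃ m, S.MOD G X π y m) :
    ∃ T Dl ρ, HAct X A G.ka T Dl ρ (S.Om X C₁) ∧ ∀ y ∈ S.Om X C₁, ρ y ∈ S.Om X C₁ ∧ S.P (ρ y) = S.P y ∧
      S.MOD G X π (ρ y) (I, 0, S.tP y) ∧ (S.MOD G X π y (I, 0, S.tP y) → ρ y = y) := by
  choose Tr hT using fun (c : ℝ) (a : A → ℂ) => (fmap_tr c a).ind h u hS hs hcl hm
  choose Dl hDl using fun s : ℝ => (fmap_sc (A := A) (B := B) s).ind h u hS hs hcl hm
  obtain ⟨ρ, hρ⟩ := (fmap_rho (A := A) (B := B)).ind h u hS hs hcl hm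
  have hden : X ⊆ closure (S.Om X C₁) := by
    have := hs.dense u.cm.mfd
    rwa [S.diff_Om_gl] at this
  have hch : ∀ y ∈ S.Om X C₁, ∃ z T ψ Φ O m, MCh S G X π z T ψ Φ O ∧ m ∈ G.MT z T ∧ m.2.2 ∉ C₁ ∧ ψ m = y := by
    intro y hy
    obtain ⟨m, h1⟩ := hm y hy
    obtain ⟨T, ψ, Φ, O, c, h2, h3⟩ := h1.chart_gl h u hS
    exact ⟨_, T, ψ, Φ, O, m, c, h2, by rw [h1.t_eq hS]; exact hy.2, h3⟩
  have hext : ∀ {f g : E → E}, ContinuousOn f X → ContinuousOn g X →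
      (∀ z T ψ Φ O m, MCh S G X π z T ψ Φ O → m ∈ G.MT z T → m.2.2 ∉ C₁ → f (ψ m) = g (ψ m)) → ∀ x ∈ X, f x = g x := by
    intro f g hf hg hfg
    refine EqOn.of_subset_closure (s := S.Om X C₁) (fun y hy => ?_) hf hg (S.Om_sub_gl X C₁) hden
    obtain ⟨z, T, ψ, Φ, O, m, c, h1, h2, rfl⟩ := hch y hy
    exact hfg z T ψ Φ O m c h1 h2
  have cT := fun c a => (hT c a).1.continuousOn
  have cD := fun s => (hDl s).1.continuousOn
  have cρ := hρ.1.continuousOn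
  have mT := fun c a => (hT c a).2.1
  have mD := fun s => (hDl s).2.1
  have mρ := hρ.2.1
  have eT := fun c a => (hT c a).2.2
  have eD := fun s => (hDl s).2.2
  have eρ := hρ.2.2
  beta_reduce at eT eD eρ
  have iT : ∀ {z T ψ Φ O m}, MCh S G X π z T ψ Φ O → m ∈ G.MT z T → ∀ c a, G.tr z c a m ∈ G.MT z T :=
    fun c hm c' a => (c.tr c' a).2 hm
  have iD : ∀ {z T ψ Φ O m}, MCh S G X π z T ψ Φ O → m ∈ G.MT z T → ∀ s, sc (Real.exp s) m ∈ G.MT z T :=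
    fun c hm s => ((fmap_sc s).an _ _ _ _ _ c).2 hm
  have iρ : ∀ {z T ψ Φ O m}, MCh S G X π z T ψ Φ O → m ∈ G.MT z T → ((I, 0, m.2.2) : Amb A B) ∈ G.MT z T :=
    fun c hm => (fmap_rho.an _ _ _ _ _ c).2 hm
  refine ⟨Tr, Dl, ρ, ⟨h.skew, h.ndeg, fun c a => ⟨(hT c a).1, mT c a⟩, ?_, ?_, ⟨fun s => (hDl s).1, mD, ?_, ?_⟩, ?_,
    S.Om_sub_gl X C₁, hden, ?_, ?_, ?_, hρ.1, mρ, ?_, ?_, ?_, ?_⟩, ?_⟩
  · refine hext (cT 0 0) continuousOn_id fun z T ψ Φ O m c h1 h2 => ?_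
    rw [eT _ _ _ _ _ _ _ c m h1 h2, G.tr_zero_gl]
  · intro c₁ a c₂ a'
    refine hext ((cT c₁ a).comp (cT c₂ a') (mT _ _)) (cT _ _) fun z T ψ Φ O m c h1 h2 => ?_
    rw [eT _ _ _ _ _ _ _ c m h1 h2, eT _ _ _ _ _ _ _ c _ (iT c h1 _ _) h2, eT _ _ _ _ _ _ _ c m h1 h2,
      h.tr_tr (c.bZ h1).1]
  · refine hext (cD 0) continuousOn_id fun z T ψ Φ O m c h1 h2 => ?_
    rw [eD _ _ _ _ _ _ c m h1 h2, Real.exp_zero, sc_one_gl]
  · intro s t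
    refine hext (cD _) ((cD s).comp (cD t) (mD _)) fun z T ψ Φ O m c h1 h2 => ?_
    rw [eD _ _ _ _ _ _ c m h1 h2, eD _ _ _ _ _ _ c m h1 h2, eD _ _ _ _ _ _ c _ (iD c h1 _) h2, Real.exp_add, sc_mul_gl]
  · intro s c₁ a
    refine hext ((cD s).comp (cT c₁ a) (mT _ _)) ((cT _ _).comp (cD s) (mD _)) fun z T ψ Φ O m c h1 h2 => ?_
    rw [eT _ _ _ _ _ _ _ c m h1 h2, eD _ _ _ _ _ _ c _ (iT c h1 _ _) h2, eD _ _ _ _ _ _ c m h1 h2,
      eT _ _ _ _ _ _ _ c _ (iD c h1 _) h2, G.sc_tr, ← Real.exp_nat_mul]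
    norm_num
  · intro y hy
    obtain ⟨z, T, ψ, Φ, O, m, c, h1, h2, rfl⟩ := hch y hy
    have h3 : (fun ca : ℝ × (A → ℂ) => Tr ca.1 ca.2 (ψ m)) = fun ca => ψ (G.tr z ca.1 ca.2 m) :=
      funext fun ca => eT _ _ _ _ _ _ _ c m h1 h2
    rw [h3]
    refine (c.bih.af.continuousOn.comp_continuous ?_ fun ca => iT c h1 _ _).continuousAt
    unfold Geo.tr
    fun_prop
  · intro y hy
    obtain ⟨z, T, ψ, Φ, O, m, c, h1, h2, rfl⟩ := hch y hy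
    have h3 : (fun s : ℝ => Dl s (ψ m)) = fun s => ψ (sc (Real.exp s) m) :=
      funext fun s => eD _ _ _ _ _ _ c m h1 h2
    rw [h3]
    refine (c.bih.af.continuousOn.comp_continuous ?_ fun s => iD c h1 _).continuousAt
    unfold sc
    fun_prop
  · obtain ⟨x, hx⟩ := u.cm.conn.nonempty
    obtain ⟨y, hy⟩ := closure_nonempty_iff.1 ⟨x, hden hx⟩
    refine ⟨y, S.Om_sub_gl X C₁ hy, ?_⟩
    obtain ⟨z, T, ψ, Φ, O, m, c, h1, h2, rfl⟩ := hch y hy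
    rw [eT _ _ _ _ _ _ _ c m h1 h2]
    intro h3
    have h4 := (c.b_eq c (iT c h1 1 0) h1 h3).1
    have h5 := congrArg Prod.fst h4
    simp [Geo.tr] at h5
  · refine hext (cρ.comp cρ mρ) cρ fun z T ψ Φ O m c h1 h2 => ?_
    rw [eρ _ _ _ _ _ c m h1 h2, eρ _ _ _ _ _ c _ (iρ c h1) h2]
  · intro c₁ a
    refine hext (cρ.comp (cT c₁ a) (mT _ _)) cρ fun z T ψ Φ O m c h1 h2 => ?_
    rw [eT _ _ _ _ _ _ _ c m h1 h2, eρ _ _ _ _ _ c m h1 h2, eρ _ _ _ _ _ c _ (iT c h1 _ _) h2]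
    rfl
  · intro s
    refine hext (cρ.comp (cD s) (mD _)) cρ fun z T ψ Φ O m c h1 h2 => ?_
    rw [eD _ _ _ _ _ _ c m h1 h2, eρ _ _ _ _ _ c m h1 h2, eρ _ _ _ _ _ c _ (iD c h1 _) h2]
    rfl
  · intro y hy
    obtain ⟨z, T, ψ, Φ, O, m, c, h1, h2, rfl⟩ := hch y hy
    obtain ⟨c₁, a, s, h3⟩ := G.orbit_gl (c.bZ h1).2 h1.2
    refine ⟨c₁, a, s, ?_⟩
    rw [eρ _ _ _ _ _ c m h1 h2, eD _ _ _ _ _ _ c _ (iρ c h1) h2, eT _ _ _ _ _ _ _ c _ (iD c (iρ c h1) _) h2, ← h3]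
  · intro y hy
    obtain ⟨z, T, ψ, Φ, O, m, c, h1, h2, rfl⟩ := hch y hy
    rw [eρ _ _ _ _ _ c m h1 h2, c.t_eq hS h1]
    refine ⟨c.mem_om h u hS (iρ c h1) h2, ?_, (c.mod _ (iρ c h1)).2, fun h3 => ?_⟩
    · rw [(c.mod _ (iρ c h1)).1, (c.mod _ h1).1]
    · rw [← (c.mod _ h1).2.unique h3]

end Crest.Agent.R264
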