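import Crest.Agent.R264.Glob.G2

/-! Glob 3: the image of the retraction is again in the class. -/

set_option autoImplicit false
set_option linter.unusedSectionVars false
open Set Filter Topology Metric Complex

namespace Crest.Agent.R264

variable {E : Type} [NormedAddCommGroup E] [NormedSpace ℂ E] [NormedSpace ℝ E] [IsScalarTower ℝ ℂ E]
  [FiniteDimensional ℂ E] {A B : Type} [Fintype A] [Fintype B] {G : Geo A B} {R : Amb A B → ℝ} {n : ℕ} {X : Set E}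
  {π : E → Amb A B} {S : Sq E A B}

variable {C : Set (Amb A B)} {R₁ : (B → ℂ) → ℝ} {C₁ : Set (B → ℂ)}

/-- the leaf is closed in `{h0 ≠ 0}` -/
theorem Geo.OK.mem_Z_of_closure_gl (h : G.OK R) {z : Amb A B} (hz : z ∈ closure G.Z) (h0 : G.h0 z.2.2 ≠ 0) :
    z ∈ G.Z := by
  set V : Set (Amb A B) := {z | (∀ f ∈ G.Eqs, f z = 0) ∧ G.h0 z.2.2 ≠ 0} with hV
  have hZ : G.Z = connectedComponentIn V G.p := rfl
  have hsub : G.Z ⊆ V := connectedComponentIn_subset _ _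
  have hzV : z ∈ V := by
    refine ⟨fun f hf => ?_, h0⟩
    have hc : IsClosed {q | f q = 0} :=
      isClosed_eq (continuousOn_univ.1 (h.anE f hf).continuousOn) continuous_const
    exact closure_minimal (fun q hq => (hsub hq).1 f hf) hc hz
  have hp : IsPreconnected (insert z G.Z) :=
    (isPreconnected_connectedComponentIn (F := V) (x := G.p)).subset_closure (subset_insert _ _)
      (insert_subset hz subset_closure)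
  exact hp.subset_connectedComponentIn (mem_insert_of_mem _ h.pZ) (insert_subset hzV hsub) (mem_insert _ _)

/-- finitely many points of the leaf over `τ`; tube lemma -/
theorem Geo.OK.fibre (h : G.OK R) {τ : B → ℂ} (hτ : G.h0 τ ≠ 0) {K : Set (Amb A B)} (hK : Bornology.IsBounded K) :
    ∃ Zf : Set (Amb A B), Zf.Finite ∧ (∀ z ∈ Zf, z ∈ G.Z ∧ z.2.2 = τ) ∧
      ∀ᶠ τ' in 𝓝 τ, ∀ z' ∈ G.Z ∩ K, z'.2.2 = τ' → ∃ z ∈ Zf, z' = G.b z τ' := by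
  have hK' : IsCompact (closure K ∩ closure G.Z) := hK.isCompact_closure.inter_right isClosed_closure
  have hcont : Continuous fun z : Amb A B => z.2.2 := by fun_prop
  have hKτ : IsCompact (closure K ∩ closure G.Z ∩ {z | z.2.2 = τ}) :=
    hK'.inter_right (isClosed_eq hcont continuous_const)
  have hmem : ∀ z ∈ closure K ∩ closure G.Z ∩ {z | z.2.2 = τ}, z ∈ G.Z := fun z hz =>
    h.mem_Z_of_closure_gl hz.1.2 (by rw [show z.2.2 = τ from hz.2]; exact hτ)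
  obtain ⟨t, ht, hcov⟩ := hKτ.elim_nhds_subcover (fun z => interior {q | q ∈ G.Z → G.b z q.2.2 = q})
    (fun z hz => interior_mem_nhds.2 (h.near (hmem z hz)))
  set U : Set (Amb A B) := ⋃ z ∈ t, interior {q | q ∈ G.Z → G.b z q.2.2 = q} with hU
  have hUo : IsOpen U := isOpen_biUnion fun _ _ => isOpen_interior
  have hcl : IsClosed ((fun z : Amb A B => z.2.2) '' ((closure K ∩ closure G.Z) \ U)) :=
    ((hK'.diff hUo).image hcont).isClosed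
  have hτ' : τ ∉ (fun z : Amb A B => z.2.2) '' ((closure K ∩ closure G.Z) \ U) := by
    rintro ⟨z, hz, he⟩
    exact hz.2 (hcov ⟨hz.1, he⟩)
  refine ⟨t, t.finite_toSet, fun z hz => ⟨hmem z (ht z hz), (ht z hz).2⟩, ?_⟩
  filter_upwards [hcl.isOpen_compl.mem_nhds hτ'] with τ' h1 z' hz' he
  have h2 : z' ∈ U := by
    by_contra h3
    exact h1 ⟨z', ⟨⟨subset_closure hz'.2, subset_closure hz'.1⟩, h3⟩, he⟩
  obtain ⟨z, hz, h3⟩ := mem_iUnion₂.1 h2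
  exact ⟨z, hz, by rw [← he]; exact (interior_subset h3 hz'.1).symm⟩

theorem Sq.OK.bdd_P_gl (u : Up n X π) (hS : S.OK G X π) : Bornology.IsBounded (S.P '' X) := by
  refine u.bdd.closure.subset ?_
  rintro _ ⟨y, hy, rfl⟩
  exact mem_closure_of_tendsto (hS.conv.tendsto_at hy)
    (Eventually.of_forall fun j => mem_image_of_mem _ ((hS.bih j).mf hy))

/-- the data followed by the points over a neighbourhood of one point of the leaf -/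
theorem loc_data_gl (h : G.OK R) (u : Up n X π) (hc : ACls X π R C) (hD : G.Down R C R₁ C₁) (hS : S.OK G X π)
    (hm : ∀ y ∈ S.Om X C₁, ∃ m, S.MOD G X π y m) {z : Amb A B} (hz : z ∈ G.Z) (hC : z.2.2 ∉ C₁) :
    ∃ (W N : Set (Amb A B)) (𝒟 : Set (Amb A B → E)), 𝒟.Finite ∧ (∀ σ ∈ 𝒟, G.nd z ∧ G.Datum X π z W N σ) ∧
      ∀ᶠ τ in 𝓝 z.2.2, (R₁ z.2.2 = 0 → R₁ τ = 0) → ∀ x ∈ S.Om X C₁, S.P x = G.b z τ →
        ∃ σ ∈ 𝒟, ∃ m, m.2.2 = τ ∧ S.Foll G π z W σ x m := by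
  have hbt : ∀ᶠ τ in 𝓝 z.2.2, (G.b z τ).2.2 = τ := (h.bt z hz).mono fun τ h1 => h1.1
  have good : G.nd z → z ∉ C → ∃ (W N : Set (Amb A B)) (𝒟 : Set (Amb A B → E)), 𝒟.Finite ∧
      (∀ σ ∈ 𝒟, G.nd z ∧ G.Datum X π z W N σ) ∧
      ∀ᶠ τ in 𝓝 z.2.2, (R₁ z.2.2 = 0 → R₁ τ = 0) → ∀ x ∈ S.Om X C₁, S.P x = G.b z τ →
        ∃ σ ∈ 𝒟, ∃ m, m.2.2 = τ ∧ S.Foll G π z W σ x m := by
    intro hn hzC
    obtain ⟨W, 𝒟, hfin, hd, hev⟩ := loc_good h u hc hS hz hn hzC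
    refine ⟨W, ∅, 𝒟, hfin, fun σ hσ => ⟨hn, hd σ hσ⟩, ?_⟩
    have h1 : Tendsto (G.b z) (𝓝 z.2.2) (𝓝 z) := by
      have := (h.anb z hz).continuousAt
      rwa [ContinuousAt, h.bz z hz] at this
    filter_upwards [h1.eventually hev, hbt] with τ h2 h3 _ x hx hP
    obtain ⟨m, hm⟩ := hm x hx
    obtain ⟨σ, hσ, h4⟩ := h2 x m hP hm
    exact ⟨σ, hσ, m, by rw [hm.t_eq hS, Sq.tP, hP, h3], h4⟩
  by_cases h1 : R₁ z.2.2 = 0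
  swap
  · exact good (hD.good z hz h1).1 (hD.good z hz h1).2
  rcases hD.tri z hz hC with ⟨hn, hzC⟩ | ⟨hn, hcell⟩ | hdeg
  · exact good hn hzC
  · obtain ⟨W, N, 𝒟, hfin, hd, hev⟩ := loc_cell h u hc hS hz hn h1 hcell
    refine ⟨W, N, 𝒟, hfin, fun σ hσ => ⟨hn, hd σ hσ⟩, ?_⟩
    have h2 := (eventually_all_finite hfin).2 fun σ hσ => (hd σ hσ).clo h u hS hz hn
    filter_upwards [hev, h2] with τ h3 h4 h5 x hx hP
    have hxX := S.Om_sub_gl X C₁ hx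
    obtain ⟨m, hm⟩ := hm x hx
    have : (𝓝[X] x).NeBot := mem_closure_iff_nhdsWithin_neBot.1 (subset_closure hxX)
    obtain ⟨σ, hσ, h6⟩ := h3 (h5 h1) x hx.1 hP ((hS.ev_Z_gl hD hxX hx.2).mono fun _ h => h.2) (hm.ev_gl h u hS).frequently
    exact ⟨σ, hσ, h4 σ hσ x hxX hP h6⟩
  · refine ⟨univ, ∅, ∅, finite_empty, fun σ hσ => hσ.elim, ?_⟩
    filter_upwards [hdeg] with τ h2 h3 x hx hP
    obtain ⟨m, hm⟩ := hm x hx
    exact (h2 (h3 h1) (hP ▸ hm.2.2.1)).elim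

/-- the sections over a neighbourhood of one point of the leaf -/
theorem loc_sec_gl (h : G.OK R) (u : Up n X π) (hc : ACls X π R C) (hD : G.Down R C R₁ C₁) (hS : S.OK G X π)
    (hm : ∀ y ∈ S.Om X C₁, ∃ m, S.MOD G X π y m) {ρ : E → E}
    (hl : ∀ y ∈ S.Om X C₁, ρ y ∈ S.Om X C₁ ∧ S.P (ρ y) = S.P y ∧
      S.MOD G X π (ρ y) (I, 0, S.tP y) ∧ (S.MOD G X π y (I, 0, S.tP y) → ρ y = y))
    {z : Amb A B} (hz : z ∈ G.Z) (hC : z.2.2 ∉ C₁) : ∃ U ∈ 𝓝 z.2.2, ∀ W₁ ⊆ U, IsOpen W₁ → IsPreconnected W₁ →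
      ∃ 𝒮 : Set ((B → ℂ) → E), 𝒮.Finite ∧ (∀ s ∈ 𝒮, Sec (ρ '' X) S.tP W₁ s) ∧
        ∀ x ∈ S.Om X C₁, ρ x = x → S.tP x ∈ W₁ → S.P x = G.b z (S.tP x) → (R₁ z.2.2 = 0 → R₁ (S.tP x) = 0) →
          ∃ s ∈ 𝒮, s (S.tP x) = x := by
  obtain ⟨W, N, 𝒟, hfin, hd, hev⟩ := loc_data_gl h u hc hD hS hm hz hC
  choose! T₀ hT₀ hlm using fun σ (hσ : σ ∈ 𝒟) => (hd σ hσ).2.lm h u hS hz (hd σ hσ).1
  refine ⟨_, inter_mem (inter_mem hev ((biInter_mem hfin).2 hT₀)) (hD.clC.isOpen_compl.mem_nhds hC), ?_⟩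
  intro W₁ hW₁ ho hcon
  have h1 : ∀ σ, ∃ s : (B → ℂ) → E, σ ∈ 𝒟 → (∃ y₀ ∈ X, ∃ m₀ : Amb A B, m₀.2.2 ∈ W₁ ∧ S.Foll G π z W σ y₀ m₀) →
      Sec (ρ '' X) S.tP W₁ s ∧ ∀ x ∈ S.Om X C₁, ρ x = x → ∀ m : Amb A B, m.2.2 ∈ W₁ → S.Foll G π z W σ x m →
        s (S.tP x) = x := by
    intro σ
    by_cases hσ : σ ∈ 𝒟 ∧ ∃ y₀ ∈ X, ∃ m₀ : Amb A B, m₀.2.2 ∈ W₁ ∧ S.Foll G π z W σ y₀ m₀
    swap
    · exact ⟨fun _ => 0, fun h2 h3 => (hσ ⟨h2, h3⟩).elim⟩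
    obtain ⟨hσ, y₀, hy₀, m₀, hm₀, hf₀⟩ := hσ
    obtain ⟨ψ, Φ, O, -, hb, h2, h3⟩ := hlm σ hσ W₁ (fun τ hτ => mem_iInter₂.1 (hW₁ hτ).1.2 σ hσ) ho hcon y₀ hy₀ m₀
      hm₀ hf₀
    have hI : ∀ τ ∈ W₁, ((I, 0, τ) : Amb A B) ∈ G.MT z W₁ := fun τ hτ => ⟨hτ, G.inM_I_gl z τ⟩
    refine ⟨fun τ => ψ (I, 0, τ), fun _ _ => ⟨⟨fun τ hτ => ?_, fun τ hτ => ?_⟩, fun x hx hρ m hmW hf => ?_⟩⟩
    · exact anAt_comp_param (c := fun τ => ((I, 0, τ) : Amb A B)) (X := G.MT z W₁)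
        (analyticAt_const.prod (analyticAt_const.prod analyticAt_id))
        ((ho.eventually_mem hτ).mono hI) (hb.af _ (hI τ hτ))
    · have h4 := (h2 _ (hI τ hτ)).2.2
      have h5 : S.tP (ψ (I, 0, τ)) = τ := (h4.t_eq hS).symm
      have h6 : ψ (I, 0, τ) ∈ S.Om X C₁ := ⟨(h4.loc h u hS).2.1, by rw [h5]; exact (hW₁ hτ).2⟩
      exact ⟨⟨_, h4.1, (hl _ h6).2.2.2 (by rw [h5]; exact h4)⟩, h5⟩
    · have h4 := h3 x (S.Om_sub_gl X C₁ hx) m hmW hf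
      have h5 := (h2 m ⟨hmW, hf.2.2⟩).2.2
      rw [h4] at h5
      have h6 := (hl x hx).2.2.1
      rw [hρ] at h6
      show ψ (I, 0, S.tP x) = x
      rw [← h5.unique h6, h4]
  choose s hs using h1
  refine ⟨s '' {σ ∈ 𝒟 | ∃ y₀ ∈ X, ∃ m₀ : Amb A B, m₀.2.2 ∈ W₁ ∧ S.Foll G π z W σ y₀ m₀},
    (hfin.subset (sep_subset _ _)).image _, ?_, ?_⟩
  · rintro _ ⟨σ, hσ, rfl⟩
    exact (hs σ hσ.1 hσ.2).1
  · intro x hx hρ hxW hP hR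
    obtain ⟨σ, hσ, m, hmt, hf⟩ := (hW₁ hxW).1.1 hR x hx hP
    have hmW : m.2.2 ∈ W₁ := by rw [hmt]; exact hxW
    have h2 : ∃ y₀ ∈ X, ∃ m₀ : Amb A B, m₀.2.2 ∈ W₁ ∧ S.Foll G π z W σ y₀ m₀ := ⟨x, S.Om_sub_gl X C₁ hx, m, hmW, hf⟩
    exact ⟨s σ, ⟨σ, ⟨hσ, h2⟩, rfl⟩, (hs σ hσ h2).2 x hx hρ m hmW hf⟩

/-- the sections over a neighbourhood of a point off `C₁` -/
theorem secs_gl (h : G.OK R) (u : Up n X π) (hc : ACls X π R C) (hD : G.Down R C R₁ C₁) (hS : S.OK G X π)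
    (hm : ∀ y ∈ S.Om X C₁, ∃ m, S.MOD G X π y m) {ρ : E → E}
    (hl : ∀ y ∈ S.Om X C₁, ρ y ∈ S.Om X C₁ ∧ S.P (ρ y) = S.P y ∧
      S.MOD G X π (ρ y) (I, 0, S.tP y) ∧ (S.MOD G X π y (I, 0, S.tP y) → ρ y = y))
    {τ : B → ℂ} (hC : τ ∉ C₁) : ∃ U ∈ 𝓝 τ, U ⊆ C₁ᶜ ∧ ∀ W₁ ⊆ U, IsOpen W₁ → IsPreconnected W₁ →
      ∃ 𝒮 : Set ((B → ℂ) → E), 𝒮.Finite ∧ (∀ s ∈ 𝒮, Sec (ρ '' X) S.tP W₁ s) ∧
        ∀ x ∈ S.Om X C₁, ρ x = x → S.tP x ∈ W₁ → (R₁ τ = 0 → R₁ (S.tP x) = 0) → ∃ s ∈ 𝒮, s (S.tP x) = x := by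
  obtain ⟨Zf, hfin, hZf, hev⟩ := h.fibre (fun h0 => hC (hD.hC τ h0)) (hS.bdd_P_gl u)
  choose! U hU hsec using fun z (hz : z ∈ Zf) =>
    loc_sec_gl h u hc hD hS hm hl (hZf z hz).1 (by rw [(hZf z hz).2]; exact hC)
  have hU' : ∀ z ∈ Zf, U z ∈ 𝓝 τ := fun z hz => by rw [← (hZf z hz).2]; exact hU z hz
  refine ⟨_, inter_mem (inter_mem hev ((biInter_mem hfin).2 hU')) (hD.clC.isOpen_compl.mem_nhds hC),
    inter_subset_right, ?_⟩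
  intro W₁ hW₁ ho hcon
  choose! 𝒮 hf hs hcov using fun z (hz : z ∈ Zf) => hsec z hz W₁ (fun τ' hτ' => mem_iInter₂.1 (hW₁ hτ').1.2 z hz) ho hcon
  refine ⟨⋃ z ∈ Zf, 𝒮 z, hfin.biUnion hf, ?_, ?_⟩
  · intro s hs'
    obtain ⟨z, hz, h1⟩ := mem_iUnion₂.1 hs'
    exact hs z hz s h1
  · intro x hx hρ hxW hR
    have hxX := S.Om_sub_gl X C₁ hx
    obtain ⟨z, hz, h1⟩ := (hW₁ hxW).1.1 (S.P x) ⟨hS.mem_Z_gl hD hxX hx.2, mem_image_of_mem _ hxX⟩ rfl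
    obtain ⟨s, h2, h3⟩ := hcov z hz x hx hρ hxW h1 (by rw [(hZf z hz).2]; exact hR)
    exact ⟨s, mem_biUnion hz h2, h3⟩

theorem inh_pp (h : G.OK R) (u : Up n X π) (hc : ACls X π R C) (hD : G.Down R C R₁ C₁) (hS : S.OK G X π)
    (hs : Small X (S.Om X C₁)ᶜ) (hm : ∀ y ∈ S.Om X C₁, ∃ m, S.MOD G X π y m)
    {ρ : E → E} (ha : AnalyticOn ℂ ρ X) (hρ : MapsTo ρ X X) (hi : ∀ x ∈ X, ρ (ρ x) = ρ x)
    (hl : ∀ y ∈ S.Om X C₁, ρ y ∈ S.Om X C₁ ∧ S.P (ρ y) = S.P y ∧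
      S.MOD G X π (ρ y) (I, 0, S.tP y) ∧ (S.MOD G X π y (I, 0, S.tP y) → ρ y = y)) : PP (ρ '' X) S.tP R₁ := by
  intro q hq
  obtain ⟨U, hU, -, h1⟩ := secs_gl h u hc hD hS hm hl (τ := q) fun hC => hq (hD.RC q hC)
  obtain ⟨ε, hε, hb⟩ := Metric.mem_nhds_iff.1 hU
  obtain ⟨𝒮, hfin, hsec, hcov⟩ := h1 _ hb isOpen_ball (convex_ball _ _).isPreconnected
  refine ⟨_, isOpen_ball, mem_ball_self hε, 𝒮, hfin, hsec, ?_⟩
  rintro _ ⟨x₀, hx₀, rfl⟩ hxW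
  set x := ρ x₀ with hx
  have hxX : x ∈ X := hρ hx₀
  have hρx : ρ x = x := hi x₀ hx₀
  have hden : x ∈ closure (S.Om X C₁) := by
    have := hs.dense u.cm.mfd hxX
    rwa [S.diff_Om_gl] at this
  have hne : (𝓝[S.Om X C₁] x).NeBot := mem_closure_iff_nhdsWithin_neBot.1 hden
  have hle : 𝓝[S.Om X C₁] x ≤ 𝓝[X] x := nhdsWithin_mono _ (S.Om_sub_gl X C₁)
  have ht : Tendsto S.tP (𝓝[S.Om X C₁] x) (𝓝 (S.tP x)) := (hS.cont_tP_gl hxX).mono_left hle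
  have h2 : ∀ᶠ y in 𝓝[S.Om X C₁] x, ∃ s ∈ 𝒮, s (S.tP y) = ρ y := by
    filter_upwards [ht (isOpen_ball.mem_nhds hxW), self_mem_nhdsWithin] with y h3 hy
    have h4 : S.tP (ρ y) = S.tP y := by simp only [Sq.tP, (hl y hy).2.1]
    obtain ⟨s, h5, h6⟩ := hcov (ρ y) (hl y hy).1 (hi y (S.Om_sub_gl X C₁ hy)) (by rw [h4]; exact h3)
      fun h7 => (hq h7).elim
    exact ⟨s, h5, by rw [← h4, h6]⟩
  obtain ⟨s, h3, h4⟩ := freq_pigeon_gl hfin h2.frequently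
  refine ⟨s, h3, ?_⟩
  have h5 : Tendsto ρ (𝓝[S.Om X C₁] x) (𝓝 x) := by
    have := (ha x hxX).continuousWithinAt.tendsto.mono_left hle
    rwa [hρx] at this
  exact tendsto_nhds_unique_of_frequently_eq (((hsec s h3).1 _ hxW).continuousAt.tendsto.comp ht) h5 h4

/-- a manifold which is a finite covering near one of its points has the dimension of the base -/
theorem PP.dim_gl {F : Type} [NormedAddCommGroup F] [NormedSpace ℂ F] [NormedSpace ℝ F] [IsScalarTower ℝ ℂ F]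
    [FiniteDimensional ℂ F] {k : ℕ} {Y : Set E} (hY : Mfd k Y) {p : E → F} (hp : AnalyticOn ℂ p Y) {R' : F → ℝ}
    (h : PP Y p R') {x : E} (hx : x ∈ Y) (hR : R' (p x) ≠ 0) : Module.finrank ℂ F = k := by
  obtain ⟨W, hW, hq, 𝒮, hfin, hsec, hcov⟩ := h _ hR
  obtain ⟨s, hs, he⟩ := hcov x hx hq
  have hsub := (hsec s hs).sub hp hW hq
  rw [he] at hsub
  obtain ⟨j, Λ, O, δ, g, hj, -, -, -, hδ, -, hb⟩ := Sub.chart hY hp hsub (U := univ) univ_mem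
  rcases Nat.eq_zero_or_pos j with rfl | hpos
  · simpa using hj
  exfalso
  have : Nonempty (Fin j) := ⟨⟨0, hpos⟩⟩
  have hinf : (ball (0 : Fin j → ℂ) δ).Infinite := infinite_of_mem_nhds 0 (ball_mem_nhds _ hδ)
  have hmem : ∀ v ∈ ball (0 : Fin j → ℂ) δ, (p x, v) ∈ ball (p x) δ ×ˢ ball (0 : Fin j → ℂ) δ :=
    fun v hv => ⟨mem_ball_self hδ, hv⟩
  refine hinf (Finite.of_finite_image (f := fun v => g (p x, v)) ((hfin.image fun s => s (p x)).subset ?_) ?_)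
  · rintro _ ⟨v, hv, rfl⟩
    have h1 : p (g (p x, v)) = p x := congrArg Prod.fst (hb.fg _ (hmem v hv))
    obtain ⟨s', h2, h3⟩ := hcov _ (hb.mg (hmem v hv)).1 (by rw [h1]; exact hq)
    rw [h1] at h3
    exact ⟨s', h2, h3⟩
  · intro v hv v' hv' he
    have h1 := hb.fg _ (hmem v hv)
    have h2 := hb.fg _ (hmem v' hv')
    simp only at he h1 h2
    rw [he, h2] at h1
    exact (congrArg Prod.snd h1).symm

/-- one-sided sections which are not walled are restrictions of full sections -/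
theorem side_cover_gl {F : Type} [NormedAddCommGroup F] [NormedSpace ℂ F] [NormedSpace ℝ F] [IsScalarTower ℝ ℂ F]
    [FiniteDimensional ℂ F] {k : ℕ} {Y : Set E} (hY : Mfd k Y) (hk : Module.finrank ℂ F = k) {p : E → F}
    (hp : AnalyticOn ℂ p Y) {R' : F → ℝ} (h : PP Y p R') {W : Set F} (hW : IsOpen W) {r : F → ℝ}
    (hr : ContinuousOn r W) (hc : ContractibleSpace (W ∩ {x | 0 < r x} : Set F)) (hR : ∀ q ∈ W, R' q = 0 → r q = 0)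
    {𝒮₀ : Set (F → E)} (h0 : ∀ s ∈ 𝒮₀, Sec Y p W s)
    (hcov : ∀ x ∈ Reg Y p, p x ∈ W → r (p x) = 0 → ∃ s ∈ 𝒮₀, s (p x) = x) :
    ∃ 𝒮 : Set (F → E), 𝒮.Finite ∧ (∀ σ ∈ 𝒮, Sec Y p (W ∩ {q | 0 < r q}) σ ∧ Walled Y p W r ∅ σ) ∧
      ∀ x ∈ Y, p x ∈ W → 0 < r (p x) → (∃ s ∈ 𝒮₀, s (p x) = x) ∨ ∃ σ ∈ 𝒮, σ (p x) = x := by
  have hV : IsOpen (W ∩ {x | 0 < r x}) := hr.isOpen_inter_preimage hW isOpen_Ioi
  obtain ⟨𝒮, hfin, hsec, h1⟩ := h.sections hY hk hp hV hc fun q hq h2 => (ne_of_gt hq.2) (hR q hq.1 h2)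
  refine ⟨{σ ∈ 𝒮 | Walled Y p W r ∅ σ}, hfin.subset (sep_subset _ _), fun σ hσ => ⟨hsec σ hσ.1, hσ.2⟩, ?_⟩
  intro x hx hxW hpos
  obtain ⟨σ, hσ, he⟩ := h1 x hx ⟨hxW, hpos⟩
  by_cases hw : Walled Y p W r ∅ σ
  · exact Or.inr ⟨σ, ⟨hσ, hw⟩, he⟩
  left
  simp only [Walled, not_forall, not_not] at hw
  obtain ⟨x', h2, h3, h4, -, h5⟩ := hw
  obtain ⟨s, hs, hse⟩ := hcov x' h2 h3 h4
  have h6 := ((h0 s hs).nhds hY hk hp hW h3).2.2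
  rw [hse, eventually_nhdsWithin_iff] at h6
  obtain ⟨_, ⟨q, hq, rfl⟩, h7⟩ := ((mem_closure_iff_frequently.1 h5).and_eventually h6).exists
  have h8 := (h7 ((hsec σ hσ).2 q hq).1).2
  rw [((hsec σ hσ).2 q hq).2] at h8
  have h9 := (h0 s hs).eqOn hY hk hp hW hV (hsec σ hσ) (preconn_of_contr hc).isPreconnected
    (fun q' hq' => ⟨hq'.1, hq'⟩) hq h8
  exact ⟨s, hs, by rw [h9 ⟨hxW, hpos⟩, he]⟩

/-- See `Blueprint.lean`, Glob 3. -/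
theorem inh (h : G.OK R) (u : Up n X π) (hc : ACls X π R C) (hD : G.Down R C R₁ C₁) (hS : S.OK G X π)
    (hs : Small X (S.Om X C₁)ᶜ) (hcl : ClIn X (S.Om X C₁)ᶜ) (hm : ∀ y ∈ S.Om X C₁, ∃ m, S.MOD G X π y m)
    {ρ : E → E} (ha : AnalyticOn ℂ ρ X) (hρ : MapsTo ρ X X) (hi : ∀ x ∈ X, ρ (ρ x) = ρ x)
    (hl : ∀ y ∈ S.Om X C₁, ρ y ∈ S.Om X C₁ ∧ S.P (ρ y) = S.P y ∧
      S.MOD G X π (ρ y) (I, 0, S.tP y) ∧ (S.MOD G X π y (I, 0, S.tP y) → ρ y = y)) :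
    Mfd (Fintype.card B) (ρ '' X) ∧ ACls (ρ '' X) S.tP R₁ C₁ := by
  obtain ⟨k, hk, -⟩ := retract u.cm.mfd u.cm.conn.isPreconnected ha hρ hi
  have hYX : ρ '' X ⊆ X := hρ.image_subset
  have han : AnalyticOn ℂ S.tP (ρ '' X) := hS.an_tP_gl.mono hYX
  have hpp := inh_pp h u hc hD hS hs hm ha hρ hi hl
  have hex : ∃ x ∈ ρ '' X, R₁ (S.tP x) ≠ 0 := by
    obtain ⟨x, hx⟩ := u.cm.conn.nonempty
    have hden := hs.dense u.cm.mfd hx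
    rw [S.diff_Om_gl] at hden
    obtain ⟨y, hy⟩ := closure_nonempty_iff.1 ⟨x, hden⟩
    have h1 := hS.om_open_gl u hD.clC hy
    rw [eventually_nhdsWithin_iff] at h1
    obtain ⟨j, Λ, O, δ, g, -, -, -, hO, hδ, -, hb⟩ := Sub.chart u.cm.mfd hS.an_tP_gl hy.1 h1
    obtain ⟨τ, hτ, hR⟩ := (dense_ne hD.anR hD.neR).inter_open_nonempty _ isOpen_ball ⟨_, mem_ball_self hδ⟩
    have h2 : (τ, (0 : Fin j → ℂ)) ∈ ball (S.tP y) δ ×ˢ ball (0 : Fin j → ℂ) δ := ⟨hτ, mem_ball_self hδ⟩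
    have h3 := hb.mg h2
    have h4 : S.tP (g (τ, 0)) = τ := congrArg Prod.fst (hb.fg _ h2)
    have h5 : g (τ, 0) ∈ S.Om X C₁ := hO h3.2 h3.1
    refine ⟨_, mem_image_of_mem ρ h3.1, ?_⟩
    have h6 : S.tP (ρ (g (τ, 0))) = τ := (congrArg (fun z : Amb A B => z.2.2) (hl _ h5).2.1).trans h4
    rw [h6]; exact hR
  have hdim : Module.finrank ℂ (B → ℂ) = k := by
    obtain ⟨x, hx, hR⟩ := hex
    exact hpp.dim_gl hk han hx hR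
  have hkB : Fintype.card B = k := by rw [← hdim, Module.finrank_fintype_fun_eq_card]
  refine ⟨hkB ▸ hk, han, ?_, hD.anR, hD.clC, hD.smC, hpp, ?_, hex⟩
  · have h1 : Bornology.IsBounded ((fun z : Amb A B => z.2.2) '' (S.P '' X)) :=
      ((ContinuousLinearMap.snd ℂ _ _).comp (ContinuousLinearMap.snd ℂ ℂ _)).lipschitz.isBounded_image (hS.bdd_P_gl u)
    refine h1.subset ?_
    rintro _ ⟨x, hx, rfl⟩
    exact ⟨_, mem_image_of_mem _ (hYX hx), rfl⟩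
  · intro q hq hR
    obtain ⟨r, hr, hd, hev⟩ := hD.smooth q hq hR
    obtain ⟨U, hU, hUC, h1⟩ := secs_gl h u hc hD hS hm hl hq
    obtain ⟨W, hW, hqW, hWU, har, -, hc0, hcp, hcm, -, -⟩ := half_box hr (hev.self_of_nhds.1 hR) hd (inter_mem hU hev)
    obtain ⟨𝒮₀, hfin, hsec, hcov⟩ := h1 W (fun τ hτ => (hWU hτ).1) hW (preconn_of_contr hc0).isPreconnected
    have hz : ∀ τ ∈ W, R₁ τ = 0 ↔ r τ = 0 := fun τ hτ => (hWU hτ).2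
    have hcov' : ∀ x ∈ Reg (ρ '' X) S.tP, S.tP x ∈ W → r (S.tP x) = 0 → ∃ s ∈ 𝒮₀, s (S.tP x) = x := by
      intro x hx hxW h0
      rw [Reg_eq_Sub hk hdim] at hx
      have hxX := hYX hx.1
      have hev' : ∀ᶠ y in 𝓝[ρ '' X] x, y ∈ X := mem_of_superset self_mem_nhdsWithin hYX
      refine hcov x ⟨⟨hxX, fun c => ?_⟩, hUC (hWU hxW).1⟩ ?_ hxW fun _ => (hz _ hxW).2 h0
      · obtain ⟨v, hv, he⟩ := hx.2 c
        exact ⟨v, Tan_mono hev' hv, by rw [← Dv_mono (hS.an_tP_gl.differentiableOn x hxX) hev' hv, he]⟩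
      · obtain ⟨x₀, hx₀, rfl⟩ := hx.1
        exact hi x₀ hx₀
    obtain ⟨𝒮p, hfp, hp1, hp2⟩ := side_cover_gl hk hdim han hpp hW har.continuousOn hcp (fun τ hτ => (hz τ hτ).1) hsec hcov'
    obtain ⟨𝒮m, hfm, hm1, hm2⟩ := side_cover_gl hk hdim han hpp hW (r := fun τ => -r τ) har.continuousOn.neg hcm
      (fun τ hτ h2 => neg_eq_zero.2 ((hz τ hτ).1 h2)) hsec fun x hx h2 h3 => hcov' x hx h2 (neg_eq_zero.1 h3)
    refine ⟨W, r, hW, hqW, har, hd, hz, 𝒮₀, 𝒮p, 𝒮m, hfin, hfp, hfm, hsec, hp1, hm1, fun x hx hxW => ?_⟩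
    rcases lt_trichotomy (r (S.tP x)) 0 with h2 | h2 | h2
    · have h3 : 0 < -r (S.tP x) := by linarith
      exact (hm2 x hx.1 hxW h3).imp id fun h4 => Or.inr ⟨h3, h4⟩
    · exact Or.inl (hcov' x hx hxW h2)
    · exact (hp2 x hx.1 hxW h2).imp id fun h4 => Or.inl ⟨h2, h4⟩

end Crest.Agent.R264
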